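import Vale.Agent.H85.Girth
import Vale.Agent.H85.Paving

/-!
P317: common bases of two matroids when one of them has large girth, both bounds in one statement.

Let `M₁`, `M₂` be matroids of the same rank `r` on the same finite ground set of size `n` with
at least one common base.

(1) If every circuit of `M₁` has at least `r - k` elements, then the number of bases of `M₂` is
    at most `(r (n - r) + 1) ^ ((k + 1) ^ 2)` times the number of common bases.
(2) If `M₁` is paving (every circuit has at least `r` elements), then the number of bases of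
    `M₂` is at most `r (n - r) + 1` times the number of common bases.

This is the conjunction of the hand-ins `A_GirthCommonBases` and `A_PavingCommonBases`; (2) is
the case `k = 0` of (1).
-/

namespace Vale.Agent.Results.P317.A0_GirthAndPavingCommonBases

theorem result.{u} :
    (∀ {α : Type u} (M₁ M₂ : Matroid α) (r k : ℕ),
      M₁.E.Finite → M₁.E = M₂.E → M₁.eRank = r → M₂.eRank = r →
      (∀ C : Set α, M₁.IsCircuit C → (r : ℕ∞) ≤ C.encard + k) →
      (∃ B : Set α, M₁.IsBase B ∧ M₂.IsBase B) →
      {B : Set α | M₂.IsBase B}.ncard ≤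
        (r * (M₁.E.ncard - r) + 1) ^ ((k + 1) ^ 2) *
          {B : Set α | M₁.IsBase B ∧ M₂.IsBase B}.ncard) ∧
    (∀ {α : Type u} (M₁ M₂ : Matroid α) (r : ℕ),
      M₁.E.Finite → M₁.E = M₂.E → M₁.eRank = r → M₂.eRank = r →
      (∀ C : Set α, M₁.IsCircuit C → (r : ℕ∞) ≤ C.encard) →
      (∃ B : Set α, M₁.IsBase B ∧ M₂.IsBase B) →
      {B : Set α | M₂.IsBase B}.ncard ≤
        (r * (M₁.E.ncard - r) + 1) * {B : Set α | M₁.IsBase B ∧ M₂.IsBase B}.ncard) :=
  ⟨fun M₁ M₂ r k hfin hE hr₁ hr₂ hg hN =>
      Vale.Agent.H85.girth_common_bases M₁ M₂ r k hfin hE hr₁ hr₂ hg hN,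
    fun M₁ M₂ r hfin hE hr₁ hr₂ hp hN =>
      Vale.Agent.H85.paving_common_bases M₁ M₂ r hfin hE hr₁ hr₂ hp hN⟩

end Vale.Agent.Results.P317.A0_GirthAndPavingCommonBases
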