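import Vale.Agent.H85.Girth

namespace Vale.Agent.Results.P317.A_GirthCommonBases

/-- Let `M₁` and `M₂` be matroids of the same rank `r` on the same finite ground set of size
`n`. If every circuit of `M₁` has at least `r - k` elements and `M₁`, `M₂` have at least one
common base, then the number of bases of `M₂` is at most `(r (n - r) + 1) ^ ((k + 1) ^ 2)`
times the number of common bases of `M₁` and `M₂`. (`k = 0`: `M₁` paving.) -/
theorem result {α : Type*} (M₁ M₂ : Matroid α) (r k : ℕ)
    (hfin : M₁.E.Finite) (hE : M₁.E = M₂.E)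
    (hr₁ : M₁.eRank = r) (hr₂ : M₂.eRank = r)
    (hgirth : ∀ C : Set α, M₁.IsCircuit C → (r : ℕ∞) ≤ C.encard + k)
    (hN : ∃ B : Set α, M₁.IsBase B ∧ M₂.IsBase B) :
    {B : Set α | M₂.IsBase B}.ncard ≤
      (r * (M₁.E.ncard - r) + 1) ^ ((k + 1) ^ 2) *
        {B : Set α | M₁.IsBase B ∧ M₂.IsBase B}.ncard :=
  Vale.Agent.H85.girth_common_bases M₁ M₂ r k hfin hE hr₁ hr₂ hgirth hN

end Vale.Agent.Results.P317.A_GirthCommonBases
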