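import Vale.Agent.H85.Paving

namespace Vale.Agent.Results.P317.A_PavingCommonBases

/-- If `M₁` and `M₂` are matroids of the same rank `r` on the same finite ground set, `M₁` is
paving (every circuit has at least `r` elements) and they have at least one common base, then
the number of bases of `M₂` is at most `r * (n - r) + 1` times the number of common bases,
where `n` is the size of the ground set. -/
theorem result {α : Type*} (M₁ M₂ : Matroid α) (r : ℕ)
    (hfin : M₁.E.Finite) (hE : M₁.E = M₂.E)
    (hr₁ : M₁.eRank = r) (hr₂ : M₂.eRank = r)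
    (hpav : ∀ C : Set α, M₁.IsCircuit C → (r : ℕ∞) ≤ C.encard)
    (hN : ∃ B : Set α, M₁.IsBase B ∧ M₂.IsBase B) :
    {B : Set α | M₂.IsBase B}.ncard ≤
      (r * (M₁.E.ncard - r) + 1) * {B : Set α | M₁.IsBase B ∧ M₂.IsBase B}.ncard :=
  Vale.Agent.H85.paving_common_bases M₁ M₂ r hfin hE hr₁ hr₂ hpav hN

end Vale.Agent.Results.P317.A_PavingCommonBases
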